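import Mathlib
import Vale.Agent.H8.General

namespace Vale.Agent.Results.P028.A_SecondMoment

open MeasureTheory Filter

/-- Weak inhomogeneous Duffin–Schaeffer statement for every (even moving) shift, under a
gcd-sum second-moment condition on `ψ`. Here `|t - round t|` is the distance from `t` to the
nearest integer. -/
theorem result (γ : ℕ → ℝ) (ψ : ℕ → ℝ) (hψ : ∀ q, 0 ≤ ψ q) (hdiv : ¬ Summable ψ)
    (hgcd : ∀ ε : ℝ, 0 < ε → ∃ᶠ N : ℕ in atTop,
      ∑ r ∈ Finset.range N, ∑ q ∈ Finset.range r,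
          (Nat.gcd q r : ℝ) * min (ψ q / q) (ψ r / r)
        ≤ ε * (∑ q ∈ Finset.range N, ψ q) ^ 2) :
    ∀ᵐ x : ℝ, ∃ᶠ q : ℕ in atTop,
      |(q : ℝ) * x - γ q - round ((q : ℝ) * x - γ q)| < ψ q :=
  Vale.Agent.H8.real_main γ ψ hψ hdiv hgcd

end Vale.Agent.Results.P028.A_SecondMoment
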