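import Mathlib
import Vale.Agent.H8.General
import Vale.Agent.H8.BA.Blocks
import Vale.Agent.H8.BA.XMain

namespace Vale.Agent.Results.P028.B0_DivisorsAndDiophantine

open MeasureTheory Filter

/-- Two special cases of the weak inhomogeneous Duffin–Schaeffer statement, as one theorem.
(1) Every (even moving) shift `γ_q`, and `ψ` supported on integers with at most `K` divisors
with divergent sum.
(2) A fixed shift `γ` of Diophantine type `τ < 1` (`k^(1+τ) ‖k γ‖ ≥ κ > 0` for all `k ≥ 1`;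
`τ = 0` is the badly approximable case) and `ψ = O(1/q)`, in each of two cases:
(a) `∑ ψ` diverges and every dyadic block `2^k ≤ q < 2^(k+1)` either carries mass at least `a`
or has its support inside the integers `q` with `∑_{d ∣ q} (1 + log d) / d^(1-τ) ≤ K`;
(b) for every `A` there are infinitely many `n` with
`∑_{q < 2^n} ψ q ≥ A n^τ (1 + log n)^2` (no condition on the support of `ψ`).
Here `|t - round t|` is the distance from `t` to the nearest integer. -/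
theorem result :
    (∀ (γ : ℕ → ℝ) (ψ : ℕ → ℝ) (K : ℕ), (∀ q, 0 ≤ ψ q) →
        (∀ q : ℕ, ψ q ≠ 0 → (Nat.divisors q).card ≤ K) → ¬ Summable ψ →
        ∀ᵐ x : ℝ, ∃ᶠ q : ℕ in atTop,
          |(q : ℝ) * x - γ q - round ((q : ℝ) * x - γ q)| < ψ q) ∧
    (∀ (γ κ τ c a K : ℝ), 0 < κ → 0 ≤ τ → τ < 1 →
        (∀ k : ℕ, 0 < k →
          κ ≤ (k : ℝ) ^ (1 + τ) * |(k : ℝ) * γ - round ((k : ℝ) * γ)|) →
        ∀ ψ : ℕ → ℝ, (∀ q, 0 ≤ ψ q) → (∀ q : ℕ, (q : ℝ) * ψ q ≤ c) →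
        ((0 < a ∧
            (∀ k : ℕ,
              a ≤ ∑ q ∈ Finset.Ico ((2 : ℕ) ^ k) ((2 : ℕ) ^ (k + 1)), ψ q ∨
              ∀ q ∈ Finset.Ico ((2 : ℕ) ^ k) ((2 : ℕ) ^ (k + 1)), ψ q ≠ 0 →
                ∑ d ∈ q.divisors, (1 + Real.log (d : ℝ)) / (d : ℝ) ^ (1 - τ) ≤ K) ∧
            ¬ Summable ψ) ∨
          (∀ A : ℝ, ∃ᶠ n : ℕ in atTop,
            A * ((n : ℝ) ^ τ * (1 + Real.log (n : ℝ)) ^ 2)
              ≤ ∑ q ∈ Finset.range (2 ^ n), ψ q)) →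
        ∀ᵐ x : ℝ, ∃ᶠ q : ℕ in atTop,
          |(q : ℝ) * x - γ - round ((q : ℝ) * x - γ)| < ψ q) := by
  refine ⟨?_, ?_⟩
  · intro γ ψ K hψ hsupp hdiv
    exact Vale.Agent.H8.real_bounded_divisors γ ψ K hψ hsupp hdiv
  · intro γ κ τ c a K hκ hτ hτ1 hγ ψ hψ hc h
    rcases h with ⟨ha, hblock, hdiv⟩ | hgrow
    · exact Vale.Agent.H8.ba_blocks_t γ κ τ c a K hκ hτ hτ1 hγ ψ hψ hc ha hblock hdiv
    · exact Vale.Agent.H8.ba_extra_t γ κ τ c hκ hτ hτ1 hγ ψ hψ hc hgrow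

end Vale.Agent.Results.P028.B0_DivisorsAndDiophantine
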