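import Mathlib
import Vale.Agent.H8.BA.MainT

namespace Vale.Agent.Results.P028.C_DiophantineShiftCriterion

open MeasureTheory Filter

/-- Weak inhomogeneous Duffin–Schaeffer statement for a fixed shift `γ` of Diophantine type `τ`
(`k^(1+τ) ‖k γ‖ ≥ κ > 0` for all `k ≥ 1`; `τ = 0` is the badly approximable case) and
`ψ = O(1/q)`, under an arithmetic second-moment condition with the divisor weight
`∑_{d ∣ q} (1 + log d) / d^(1-τ)`. Here `|t - round t|` is the distance from `t` to the nearest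
integer. -/
theorem result (γ κ τ c : ℝ) (hκ : 0 < κ) (hτ : 0 ≤ τ)
    (hγ : ∀ k : ℕ, 0 < k →
      κ ≤ (k : ℝ) ^ (1 + τ) * |(k : ℝ) * γ - round ((k : ℝ) * γ)|)
    (ψ : ℕ → ℝ) (hψ : ∀ q, 0 ≤ ψ q) (hc : ∀ q : ℕ, (q : ℝ) * ψ q ≤ c)
    (hdiv : ¬ Summable ψ)
    (hG : ∀ ε : ℝ, 0 < ε → ∃ᶠ N : ℕ in atTop,
      ∑ q ∈ Finset.range N,
          ψ q * ∑ d ∈ q.divisors, (1 + Real.log (d : ℝ)) / (d : ℝ) ^ (1 - τ)
        ≤ ε * (∑ q ∈ Finset.range N, ψ q) ^ 2) :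
    ∀ᵐ x : ℝ, ∃ᶠ q : ℕ in atTop,
      |(q : ℝ) * x - γ - round ((q : ℝ) * x - γ)| < ψ q :=
  Vale.Agent.H8.ba_main_t γ κ τ c hκ hτ hγ ψ hψ hc hdiv hG

end Vale.Agent.Results.P028.C_DiophantineShiftCriterion
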