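import Mathlib
import Vale.Agent.H8.BA.Blocks
import Vale.Agent.H8.BA.XMain

namespace Vale.Agent.Results.P028.D00_BlocksOrGrowth

open MeasureTheory Filter

/-- Weak inhomogeneous Duffin–Schaeffer statement for a fixed shift `γ` of Diophantine type
`τ < 1` (`k^(1+τ) ‖k γ‖ ≥ κ > 0` for all `k ≥ 1`; `τ = 0` is the badly approximable case) and
`ψ = O(1/q)`, in each of two cases:
(a) `∑ ψ` diverges and every dyadic block `2^k ≤ q < 2^(k+1)` either carries mass at least `a`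
or has its support inside the integers `q` with `∑_{d ∣ q} (1 + log d) / d^(1-τ) ≤ K`;
(b) for every `A` there are infinitely many `n` with
`∑_{q < 2^n} ψ q ≥ A n^τ (1 + log n)^2` (no condition on the support of `ψ`).
Here `|t - round t|` is the distance from `t` to the nearest integer. -/
theorem result (γ κ τ c a K : ℝ) (hκ : 0 < κ) (hτ : 0 ≤ τ) (hτ1 : τ < 1)
    (hγ : ∀ k : ℕ, 0 < k →
      κ ≤ (k : ℝ) ^ (1 + τ) * |(k : ℝ) * γ - round ((k : ℝ) * γ)|)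
    (ψ : ℕ → ℝ) (hψ : ∀ q, 0 ≤ ψ q) (hc : ∀ q : ℕ, (q : ℝ) * ψ q ≤ c)
    (h : (0 < a ∧
          (∀ k : ℕ,
            a ≤ ∑ q ∈ Finset.Ico ((2 : ℕ) ^ k) ((2 : ℕ) ^ (k + 1)), ψ q ∨
            ∀ q ∈ Finset.Ico ((2 : ℕ) ^ k) ((2 : ℕ) ^ (k + 1)), ψ q ≠ 0 →
              ∑ d ∈ q.divisors, (1 + Real.log (d : ℝ)) / (d : ℝ) ^ (1 - τ) ≤ K) ∧
          ¬ Summable ψ) ∨
        (∀ A : ℝ, ∃ᶠ n : ℕ in atTop,
          A * ((n : ℝ) ^ τ * (1 + Real.log (n : ℝ)) ^ 2)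
            ≤ ∑ q ∈ Finset.range (2 ^ n), ψ q)) :
    ∀ᵐ x : ℝ, ∃ᶠ q : ℕ in atTop,
      |(q : ℝ) * x - γ - round ((q : ℝ) * x - γ)| < ψ q := by
  rcases h with ⟨ha, hblock, hdiv⟩ | hgrow
  · exact Vale.Agent.H8.ba_blocks_t γ κ τ c a K hκ hτ hτ1 hγ ψ hψ hc ha hblock hdiv
  · exact Vale.Agent.H8.ba_extra_t γ κ τ c hκ hτ hτ1 hγ ψ hψ hc hgrow

end Vale.Agent.Results.P028.D00_BlocksOrGrowth
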