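import Mathlib
import Vale.Agent.H8.General

namespace Vale.Agent.Results.P028.E_BoundedDivisors

open MeasureTheory Filter

/-- Weak inhomogeneous Duffin–Schaeffer statement for every (even moving) shift when `ψ` is
supported on integers with at most `K` divisors. Here `|t - round t|` is the distance from `t`
to the nearest integer. -/
theorem result (γ : ℕ → ℝ) (ψ : ℕ → ℝ) (K : ℕ) (hψ : ∀ q, 0 ≤ ψ q)
    (hsupp : ∀ q : ℕ, ψ q ≠ 0 → (Nat.divisors q).card ≤ K) (hdiv : ¬ Summable ψ) :
    ∀ᵐ x : ℝ, ∃ᶠ q : ℕ in atTop,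
      |(q : ℝ) * x - γ q - round ((q : ℝ) * x - γ q)| < ψ q :=
  Vale.Agent.H8.real_bounded_divisors γ ψ K hψ hsupp hdiv

end Vale.Agent.Results.P028.E_BoundedDivisors
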